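import Mathlib

/-!
# P129: permanence of the separable quotient property

The property of having a separable infinite-dimensional quotient passes from a Banach space to every
Banach space that maps onto it, in particular to products.
-/

open TopologicalSpace

namespace Vale.Agent.Results.P129.Permanence

universe u

/-- `X` admits a bounded linear map onto a separable infinite-dimensional Banach space. -/
def HasSepQuot (X : Type u) [NormedAddCommGroup X] [NormedSpace ℝ X] : Prop :=
  ∃ (Y : Type u) (_ : NormedAddCommGroup Y) (_ : NormedSpace ℝ Y),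
    CompleteSpace Y ∧ SeparableSpace Y ∧ ¬ FiniteDimensional ℝ Y ∧
      ∃ T : X →L[ℝ] Y, Function.Surjective T

theorem result :
    (∀ (Z X : Type u) [NormedAddCommGroup Z] [NormedSpace ℝ Z] [NormedAddCommGroup X]
      [NormedSpace ℝ X] (S : Z →L[ℝ] X), Function.Surjective S → HasSepQuot X → HasSepQuot Z) ∧
    (∀ (X W : Type u) [NormedAddCommGroup X] [NormedSpace ℝ X] [NormedAddCommGroup W]
      [NormedSpace ℝ W], HasSepQuot X → HasSepQuot (X × W)) ∧
    (∀ (X : Type u) [NormedAddCommGroup X] [NormedSpace ℝ X] [CompleteSpace X] [SeparableSpace X],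
      ¬ FiniteDimensional ℝ X → HasSepQuot X) := by
  have h1 : ∀ (Z X : Type u) [NormedAddCommGroup Z] [NormedSpace ℝ Z] [NormedAddCommGroup X]
      [NormedSpace ℝ X] (S : Z →L[ℝ] X), Function.Surjective S → HasSepQuot X →
      HasSepQuot Z := by
    intro Z X _ _ _ _ S hS ⟨Y, i1, i2, hc, hs, hf, T, hT⟩
    exact ⟨Y, i1, i2, hc, hs, hf, T.comp S, hT.comp hS⟩
  refine ⟨h1, ?_, ?_⟩
  · intro X W _ _ _ _ h
    exact h1 (X × W) X (ContinuousLinearMap.fst ℝ X W) Prod.fst_surjective h
  · intro X _ _ hc hs hf
    exact ⟨X, inferInstance, inferInstance, hc, hs, hf, ContinuousLinearMap.id ℝ X,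
      Function.surjective_id⟩

end Vale.Agent.Results.P129.Permanence
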