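import Mathlib

/-! P129: the separable quotient property passes backwards along bounded linear surjections. -/

namespace Vale.Agent.Results.P129.Surjections

open TopologicalSpace

/-- `X` has a separable infinite-dimensional quotient by a closed subspace. -/
def HasSepQuot (X : Type) [NormedAddCommGroup X] [NormedSpace ℝ X] : Prop :=
  ∃ M : Submodule ℝ X, IsClosed (M : Set X) ∧ SeparableSpace (X ⧸ M) ∧
    ¬ FiniteDimensional ℝ (X ⧸ M)

theorem result (X Y : Type) [NormedAddCommGroup X] [NormedSpace ℝ X] [CompleteSpace X]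
    [NormedAddCommGroup Y] [NormedSpace ℝ Y] [CompleteSpace Y] (T : X →L[ℝ] Y)
    (hT : Function.Surjective T) (hY : HasSepQuot Y) : HasSepQuot X := by
  obtain ⟨M, hM, hsep, hinf⟩ := hY
  have hopen : IsOpenMap T := T.isOpenMap hT
  let φ : X →ₗ[ℝ] Y ⧸ M := M.mkQ.comp (T : X →ₗ[ℝ] Y)
  have hφs : Function.Surjective φ := (Submodule.mkQ_surjective M).comp hT
  have hφo : IsOpenMap φ := (Submodule.isOpenMap_mkQ M).comp hopen
  have hker : LinearMap.ker φ = M.comap (T : X →ₗ[ℝ] Y) := by
    ext x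
    simp [φ]
  refine ⟨LinearMap.ker φ, ?_, ?_, ?_⟩
  · rw [hker]
    exact hM.preimage T.continuous
  · obtain ⟨D, hDc, hDd⟩ := hsep.exists_countable_dense
    choose g hg using hφs
    refine ⟨⟨(fun d => (LinearMap.ker φ).mkQ (g d)) '' D, hDc.image _, ?_⟩⟩
    rw [dense_iff_inter_open]
    intro U hU hne
    have hcont : Continuous (LinearMap.ker φ).mkQ := continuous_quot_mk
    have hV : IsOpen ((LinearMap.ker φ).mkQ ⁻¹' U) := hU.preimage hcont
    have hVne : ((LinearMap.ker φ).mkQ ⁻¹' U).Nonempty := by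
      obtain ⟨u, hu⟩ := hne
      obtain ⟨x, rfl⟩ := Submodule.mkQ_surjective _ u
      exact ⟨x, hu⟩
    obtain ⟨z, hz, hzD⟩ := hDd.inter_open_nonempty _ (hφo _ hV) (hVne.image φ)
    obtain ⟨x, hx, rfl⟩ := hz
    refine ⟨(LinearMap.ker φ).mkQ (g (φ x)), ?_, ⟨φ x, hzD, rfl⟩⟩
    have : (LinearMap.ker φ).mkQ (g (φ x)) = (LinearMap.ker φ).mkQ x := by
      rw [Submodule.mkQ_apply, Submodule.mkQ_apply, Submodule.Quotient.eq, LinearMap.mem_ker,
        map_sub, hg, sub_self]
    rw [this]
    exact hx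
  · intro hfd
    exact hinf ((LinearMap.quotKerEquivOfSurjective φ hφs).finiteDimensional)

end Vale.Agent.Results.P129.Surjections
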